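import Mathlib
import Vale.Agent.P037.Defs
import Vale.Agent.P037.Main

namespace Vale.Agent.Results.P037.Counter

open Vale.Agent.P037

theorem result : ¬ ∀ (k : ℕ) (H : Fin k → Fin k → Bool), 1 ≤ k →
    ∃ c C : ℝ, 0 < c ∧ 0 < C ∧ ∀ (n : ℕ) (ε : ℝ) (A : Fin n → Fin n → Bool),
      1 ≤ n → 0 < ε → ε < 1 → ε ≤ distFree H A →
        c * ε ^ C * (n : ℝ) ^ (2 * k) ≤ (numCopies H A : ℝ) := by
  intro hall
  obtain ⟨c, C, hc, -, h⟩ := hall 44 pat (by norm_num)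
  obtain ⟨n, ε, A, h1, h2, h3, h4, h5⟩ := main c C hc
  exact absurd (h n ε A h1 h2 h3 h4) (not_le.mpr h5)

end Vale.Agent.Results.P037.Counter
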